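import Vale.Agent.Lib.P359.Final

/-!
The spherical Laughlin Hamiltonian `H = sum over i < j of P_ij` (Haldane `V_1` pseudopotential)
for `N ≥ 2` fermions at the Laughlin flux `Q = 3 (N - 1)`: the two lowest eigenvalues
`E0 ≤ E1` (counted with multiplicity) on the antisymmetric subspace satisfy
`E1 - E0 ≤ (6 N - 7) / (3 N - 2) < 2`.
-/

namespace Vale.Agent.Results.P359.UniformGapUpperBound

open Matrix Vale.Agent.Lib.P359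

/-- Check of the conventions: `Sz, Sp, Sm` are the spin-`Q/2` matrices: `[S^z, S^+] = S^+`,
`[S^+, S^-] = 2 S^z`, `(S^z)^* = S^z`, and the Casimir value is `(Q/2)(Q/2 + 1)`. -/
theorem spin_relations (Q : ℕ) :
    Sz Q * Sp Q - Sp Q * Sz Q = Sp Q ∧ Sp Q * Sm Q - Sm Q * Sp Q = (2 : ℂ) • Sz Q ∧
      (Sz Q)ᴴ = Sz Q ∧
      Sz Q * Sz Q + (1 / 2 : ℂ) • (Sp Q * Sm Q + Sm Q * Sp Q) =
        ((Q : ℂ) / 2 * ((Q : ℂ) / 2 + 1)) • (1 : Matrix (Orb Q) (Orb Q) ℂ) :=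
  ⟨Sz_Sp_comm Q, Sp_Sm_comm Q, Sz_conjTranspose Q, spin_casimir Q⟩

theorem result (N : ℕ) (hN : 2 ≤ N) :
    (∃ P : Matrix (Pair (3 * (N - 1))) (Pair (3 * (N - 1))) ℂ, IsPairProj (3 * (N - 1)) P) ∧
    ∀ P : Matrix (Pair (3 * (N - 1))) (Pair (3 * (N - 1))) ℂ, IsPairProj (3 * (N - 1)) P →
      ∃ (E0 E1 : ℝ) (ψ0 ψ1 : Cfg N (3 * (N - 1)) → ℂ),
        Antisym ψ0 ∧ Antisym ψ1 ∧ ip ψ0 ψ0 = 1 ∧ ip ψ1 ψ1 = 1 ∧ ip ψ0 ψ1 = 0 ∧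
        ham P ψ0 = (E0 : ℂ) • ψ0 ∧ ham P ψ1 = (E1 : ℂ) • ψ1 ∧
        (∀ φ : Cfg N (3 * (N - 1)) → ℂ, Antisym φ →
          E0 * (ip φ φ).re ≤ (ip φ (ham P φ)).re) ∧
        (∀ φ : Cfg N (3 * (N - 1)) → ℂ, Antisym φ → ip ψ0 φ = 0 →
          E1 * (ip φ φ).re ≤ (ip φ (ham P φ)).re) ∧
        E0 ≤ E1 ∧ E1 - E0 ≤ (6 * (N : ℝ) - 7) / (3 * (N : ℝ) - 2) := by
  refine ⟨exists_pairProj _, fun P hP => ?_⟩
  obtain ⟨t, ht0, htQ, hG⟩ := pairGood_of_isPairProj (by omega : 1 ≤ 3 * (N - 1)) hP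
  obtain ⟨E0, E1, ψ0, ψ1, h1, h2, h3, h4, h5, h6, h7, h8, h9, h10, h11⟩ :=
    gap_general (N := N) (Q := 3 * (N - 1)) hN (by omega) hG
  refine ⟨E0, E1, ψ0, ψ1, h1, h2, h3, h4, h5, h6, h7, h8, h9, h10, ?_⟩
  have hNr : (2 : ℝ) ≤ N := by exact_mod_cast hN
  have hQ : ((3 * (N - 1) : ℕ) : ℝ) = 3 * (N : ℝ) - 3 := by
    rw [Nat.cast_mul, Nat.cast_sub (by omega : 1 ≤ N)]
    push_cast
    ring
  rw [hQ] at h11 htQ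
  have ht : t ≤ (6 * (N : ℝ) - 7) / (3 * (N : ℝ) - 2) := by
    rw [le_div_iff₀ (by linarith)]
    linarith
  have hgap : E1 - E0 ≤ t := by
    have h : (E1 - E0) * (2 * ((N : ℝ) - 1)) ≤ t * (2 * ((N : ℝ) - 1)) := by
      linarith
    exact le_of_mul_le_mul_right h (by linarith)
  linarith

end Vale.Agent.Results.P359.UniformGapUpperBound
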